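import Vale.Agent.P201.Two

namespace Vale.Agent.Results.P201.InitialFormConstraints

open MonoidAlgebra Vale.Agent.P201

theorem result {K : Type*} [Field K] {G : Type*} [Group G]
    (hG : ∀ g : G, g ≠ 1 → ¬ IsOfFinOrder g)
    (α β : MonoidAlgebra K G) (hβ : β ≠ 0) (h0 : α * β = 0 ∨ β * α = 0)
    {Γ₀ : Type*} [LinearOrderedCommGroupWithZero Γ₀] (v : Valuation K Γ₀)
    (g₀ : G) (hg₀ : α.coeff g₀ ≠ 0) (hmax : ∀ g, v (α.coeff g) ≤ v (α.coeff g₀)) :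
    (1 : G) ∈ Subsemigroup.closure
      {s | ∃ g, g ≠ g₀ ∧ v (α.coeff g) = v (α.coeff g₀) ∧ s = g₀⁻¹ * g} ∧
    ∃ g g', g ≠ g₀ ∧ g' ≠ g₀ ∧ g ≠ g' ∧ v (α.coeff g) = v (α.coeff g₀) ∧
      v (α.coeff g') = v (α.coeff g₀) :=
  ⟨one_mem_closure_of_annihilates v h0 hβ hg₀ hmax,
    exists_two_other_maximizers hG v h0 hβ hg₀ hmax⟩

end Vale.Agent.Results.P201.InitialFormConstraints
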