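import Vale.Agent.P201.Minimal
import Vale.Agent.P201.FiniteField

namespace Vale.Agent.Results.P201.ReductionFiniteFieldsNoUP

open MonoidAlgebra Vale.Agent.P201

universe u v

theorem result
    (hyp : ∀ (p n : ℕ) [Fact p.Prime] (H : Type u) [Group H], n ≠ 0 → Group.FG H →
      (∀ h : H, h ≠ 1 → ¬ IsOfFinOrder h) →
      (∀ (N : Subgroup H) [N.Normal], UniqueProds (H ⧸ N) → N = ⊤) →
      NoZeroDivisors (MonoidAlgebra (GaloisField p n) H))
    (K : Type v) [Field K] (G : Type u) [Group G] (hG : ∀ g : G, g ≠ 1 → ¬ IsOfFinOrder g) :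
    NoZeroDivisors (MonoidAlgebra K G) := by
  constructor
  intro α β h0
  by_contra hcon
  push Not at hcon
  obtain ⟨p, n, hp, hn, α', β', hα', hβ', h0'⟩ := exists_finite_field_zero_divisors hcon.1 hcon.2 h0
  obtain ⟨H, hFG, ⟨α'', β'', hα'', hβ'', h0''⟩, hUP⟩ :=
    exists_fg_subgroup_of_zero_divisors hα' hβ' h0'
  have hGH : ∀ z : H, z ≠ 1 → ¬ IsOfFinOrder z := by
    intro z hz hfin
    exact hG z (by simpa using hz) (MonoidHom.isOfFinOrder H.subtype hfin)
  have := hyp p n H hn ((Group.fg_iff_subgroup_fg H).mpr hFG) hGH hUP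
  rcases mul_eq_zero.mp h0'' with h | h
  · exact hα'' h
  · exact hβ'' h

end Vale.Agent.Results.P201.ReductionFiniteFieldsNoUP
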