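import Vale.Agent.P201.ThreeUP
import Vale.Agent.P201.RootOfUnity

namespace Vale.Agent.Results.P201.ThreeTermStructure

open MonoidAlgebra Vale.Agent.P201

theorem result {K : Type*} [Field K] {G : Type*} [Group G]
    (hG : ∀ g : G, g ≠ 1 → ¬ IsOfFinOrder g)
    (a b c : K) (g₁ g₂ g₃ : G) (h12 : g₁ ≠ g₂) (h13 : g₁ ≠ g₃) (h23 : g₂ ≠ g₃)
    (habc : ¬ (a = 0 ∧ b = 0 ∧ c = 0))
    (β : MonoidAlgebra K G) (hβ : β ≠ 0)
    (h0 : (single g₁ a + single g₂ b + single g₃ c) * β = 0 ∨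
      β * (single g₁ a + single g₂ b + single g₃ c) = 0) :
    (a ≠ 0 ∧ b ≠ 0 ∧ c ≠ 0) ∧
    (IsIntegral ℤ (b / a) ∧ IsIntegral ℤ (a / b) ∧ IsIntegral ℤ (c / a) ∧ IsIntegral ℤ (a / c)) ∧
    (∀ p : ℕ, p ≠ 0 → CharP K p → ∃ n : ℕ, 0 < n ∧ (b / a) ^ n = 1 ∧ (c / a) ^ n = 1) ∧
    (∀ v : AbsoluteValue K ℝ, v a < v b + v c ∧ v b < v a + v c ∧ v c < v a + v b) ∧
    ((1 : G) ∈ Subsemigroup.closure {g₁⁻¹ * g₂, g₁⁻¹ * g₃} ∧
      (1 : G) ∈ Subsemigroup.closure {g₂⁻¹ * g₁, g₂⁻¹ * g₃} ∧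
      (1 : G) ∈ Subsemigroup.closure {g₃⁻¹ * g₁, g₃⁻¹ * g₂}) ∧
    (∀ (N : Subgroup (Subgroup.closure ({g₁⁻¹ * g₂, g₁⁻¹ * g₃} : Set G))) [N.Normal],
      UniqueProds (Subgroup.closure ({g₁⁻¹ * g₂, g₁⁻¹ * g₃} : Set G) ⧸ N) → N = ⊤) := by
  classical
  have hval : ∀ {Γ₀ : Type _} [LinearOrderedCommGroupWithZero Γ₀] (v : Valuation K Γ₀),
      v a ≠ 0 ∧ v b = v a ∧ v c = v a := fun v => tri_val_eq hG h12 h13 h23 habc hβ h0 v
  have hne : a ≠ 0 ∧ b ≠ 0 ∧ c ≠ 0 := by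
    obtain ⟨h1, h2, h3⟩ := tri_val_eq hG h12 h13 h23 habc hβ h0 (1 : Valuation K NNReal)
    exact ⟨(Valuation.ne_zero_iff _).mp h1, (Valuation.ne_zero_iff _).mp (h2 ▸ h1),
      (Valuation.ne_zero_iff _).mp (h3 ▸ h1)⟩
  obtain ⟨ha, hb, hc⟩ := hne
  have hperm2 : (single g₂ b + single g₁ a + single g₃ c : MonoidAlgebra K G)
      = single g₁ a + single g₂ b + single g₃ c := by rw [add_comm (single g₂ b)]
  have hperm3 : (single g₃ c + single g₁ a + single g₂ b : MonoidAlgebra K G)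
      = single g₁ a + single g₂ b + single g₃ c := by rw [add_assoc, add_comm]
  have i1 : IsIntegral ℤ (b / a) := isIntegral_div_of_forall_val_eq ha (fun O => (hval _).2.1)
  have i2 : IsIntegral ℤ (a / b) := isIntegral_div_of_forall_val_eq hb (fun O => (hval _).2.1.symm)
  have i3 : IsIntegral ℤ (c / a) := isIntegral_div_of_forall_val_eq ha (fun O => (hval _).2.2)
  have i4 : IsIntegral ℤ (a / c) := isIntegral_div_of_forall_val_eq hc (fun O => (hval _).2.2.symm)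
  refine ⟨⟨ha, hb, hc⟩, ⟨i1, i2, i3, i4⟩, ?_, ?_, ⟨?_, ?_, ?_⟩, ?_⟩
  · intro p hp hchar
    obtain ⟨n, hn, hn1⟩ := exists_pow_eq_one_of_isIntegral_charP p hp (div_ne_zero hb ha) i1
    obtain ⟨m, hm, hm1⟩ := exists_pow_eq_one_of_isIntegral_charP p hp (div_ne_zero hc ha) i3
    refine ⟨n * m, Nat.mul_pos hn hm, ?_, ?_⟩
    · rw [pow_mul, hn1, one_pow]
    · rw [mul_comm, pow_mul, hm1, one_pow]
  · intro v
    refine ⟨tri_abv_lt hG h12 h13 h23 habc hβ h0 v, ?_, ?_⟩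
    · exact tri_abv_lt hG h12.symm h23 h13 (fun h => habc ⟨h.2.1, h.1, h.2.2⟩) hβ
        (by rw [hperm2]; exact h0) v
    · exact tri_abv_lt hG h13.symm h23.symm h12 (fun h => habc ⟨h.2.1, h.2.2, h.1⟩) hβ
        (by rw [hperm3]; exact h0) v
  · exact tri_semigroup h12 h13 ha hβ h0
  · exact tri_semigroup h12.symm h23 hb hβ (by rw [hperm2]; exact h0)
  · exact tri_semigroup h13.symm h23.symm hc hβ (by rw [hperm3]; exact h0)
  · intro N hN hUP
    have hnorm : single g₁⁻¹ (1 : K) * (single g₁ a + single g₂ b + single g₃ c)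
        = single 1 a + single (g₁⁻¹ * g₂) b + single (g₁⁻¹ * g₃) c := by
      simp [mul_add, single_mul_single]
    have hx : g₁⁻¹ * g₂ ≠ 1 := fun h => h12 (inv_mul_eq_one.mp h)
    have hy : g₁⁻¹ * g₃ ≠ 1 := fun h => h13 (inv_mul_eq_one.mp h)
    have hxy : g₁⁻¹ * g₂ ≠ g₁⁻¹ * g₃ := fun h => h23 (mul_left_cancel h)
    rcases h0 with h0 | h0
    · exact tri_no_UP_quotient hG hβ habc hx hy hxy
        (Or.inl (by rw [← hnorm, mul_assoc, h0, mul_zero])) N hUP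
    · have hβ' : β * single g₁ (1 : K) ≠ 0 := by
        intro h
        apply hβ
        have := congrArg (fun z => z * single g₁⁻¹ (1 : K)) h
        simpa [mul_assoc, single_mul_single, ← one_def] using this
      refine tri_no_UP_quotient hG hβ' habc hx hy hxy (Or.inr ?_) N hUP
      rw [← hnorm, mul_assoc, ← mul_assoc (single g₁ (1 : K)), single_mul_single]
      simp only [mul_inv_cancel, mul_one, ← one_def, one_mul]
      exact h0

end Vale.Agent.Results.P201.ThreeTermStructure
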