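import Vale.Agent.Results.P201.Z_DominantCoefficient
import Vale.Agent.Results.P201.InitialFormConstraints
import Vale.Agent.Results.P201.ReductionFiniteFieldsNoUP
import Vale.Agent.Results.P201.ThreeTermStructure

namespace Vale.Agent.Results.P201.A0_Combined

open MonoidAlgebra

universe u v w

/-- Q1 follows from its restriction to finite fields and finitely generated torsion-free groups
without nontrivial unique-product quotient. -/
def Reduction : Prop :=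
  (∀ (p n : ℕ) [Fact p.Prime] (H : Type u) [Group H], n ≠ 0 → Group.FG H →
      (∀ h : H, h ≠ 1 → ¬ IsOfFinOrder h) →
      (∀ (N : Subgroup H) [N.Normal], UniqueProds (H ⧸ N) → N = ⊤) →
      NoZeroDivisors (MonoidAlgebra (GaloisField p n) H)) →
    ∀ (K : Type v) [Field K] (G : Type u) [Group G], (∀ g : G, g ≠ 1 → ¬ IsOfFinOrder g) →
      NoZeroDivisors (MonoidAlgebra K G)

/-- Elements with a dominant coefficient are regular, also on functions vanishing at infinity. -/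
def DomRegular (K : Type v) [Field K] (G : Type u) [Group G] : Prop :=
  ∀ (v : AbsoluteValue K ℝ) (α : MonoidAlgebra K G), α ≠ 0 → ∀ g₀ : G,
    ∑ g ∈ α.coeff.support, v (α.coeff g) ≤ 2 * v (α.coeff g₀) →
    (∀ β : MonoidAlgebra K G, (α * β = 0 → β = 0) ∧ (β * α = 0 → β = 0)) ∧
    (∀ f : G → K, Filter.Tendsto (fun h => v (f h)) Filter.cofinite (nhds 0) →
      ((∀ h, ∑ g ∈ α.coeff.support, α.coeff g * f (g⁻¹ * h) = 0) → f = 0) ∧
      ((∀ h, ∑ g ∈ α.coeff.support, f (h * g⁻¹) * α.coeff g = 0) → f = 0))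

/-- Constraints on the initial form of a zero divisor with respect to any valuation. -/
def InitForm (K : Type v) [Field K] (G : Type u) [Group G] : Prop :=
  ∀ α β : MonoidAlgebra K G, β ≠ 0 → (α * β = 0 ∨ β * α = 0) →
    ∀ (Γ₀ : Type w) [LinearOrderedCommGroupWithZero Γ₀] (v : Valuation K Γ₀) (g₀ : G),
    α.coeff g₀ ≠ 0 → (∀ g, v (α.coeff g) ≤ v (α.coeff g₀)) →
    (1 : G) ∈ Subsemigroup.closure
      {s | ∃ g, g ≠ g₀ ∧ v (α.coeff g) = v (α.coeff g₀) ∧ s = g₀⁻¹ * g} ∧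
    ∃ g g', g ≠ g₀ ∧ g' ≠ g₀ ∧ g ≠ g' ∧ v (α.coeff g) = v (α.coeff g₀) ∧
      v (α.coeff g') = v (α.coeff g₀)

/-- Structure of a three-term zero divisor. -/
def ThreeTerm (K : Type v) [Field K] (G : Type u) [Group G] : Prop :=
  ∀ (a b c : K) (g₁ g₂ g₃ : G), g₁ ≠ g₂ → g₁ ≠ g₃ → g₂ ≠ g₃ →
    ¬ (a = 0 ∧ b = 0 ∧ c = 0) → ∀ β : MonoidAlgebra K G, β ≠ 0 →
    ((single g₁ a + single g₂ b + single g₃ c) * β = 0 ∨
      β * (single g₁ a + single g₂ b + single g₃ c) = 0) →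
    (a ≠ 0 ∧ b ≠ 0 ∧ c ≠ 0) ∧
    (IsIntegral ℤ (b / a) ∧ IsIntegral ℤ (a / b) ∧ IsIntegral ℤ (c / a) ∧
      IsIntegral ℤ (a / c)) ∧
    (∀ p : ℕ, p ≠ 0 → CharP K p → ∃ n : ℕ, 0 < n ∧ (b / a) ^ n = 1 ∧ (c / a) ^ n = 1) ∧
    (∀ v : AbsoluteValue K ℝ, v a < v b + v c ∧ v b < v a + v c ∧ v c < v a + v b) ∧
    ((1 : G) ∈ Subsemigroup.closure {g₁⁻¹ * g₂, g₁⁻¹ * g₃} ∧
      (1 : G) ∈ Subsemigroup.closure {g₂⁻¹ * g₁, g₂⁻¹ * g₃} ∧
      (1 : G) ∈ Subsemigroup.closure {g₃⁻¹ * g₁, g₃⁻¹ * g₂}) ∧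
    (∀ (N : Subgroup (Subgroup.closure ({g₁⁻¹ * g₂, g₁⁻¹ * g₃} : Set G))) [N.Normal],
      UniqueProds (Subgroup.closure ({g₁⁻¹ * g₂, g₁⁻¹ * g₃} : Set G) ⧸ N) → N = ⊤)

theorem result :
    Reduction.{u, v} ∧
    ∀ (K : Type v) [Field K] (G : Type u) [Group G], (∀ g : G, g ≠ 1 → ¬ IsOfFinOrder g) →
      DomRegular K G ∧ InitForm.{u, v, w} K G ∧ ThreeTerm K G :=
  ⟨fun hyp K _ G _ hG => ReductionFiniteFieldsNoUP.result hyp K G hG,
    fun _ _ _ _ hG =>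
      ⟨fun v α hα g₀ hdom => Z_DominantCoefficient.result v hG α hα g₀ hdom,
        fun α β hβ h0 _ _ v g₀ hg₀ hmax =>
          InitialFormConstraints.result hG α β hβ h0 v g₀ hg₀ hmax,
        fun a b c g₁ g₂ g₃ h12 h13 h23 habc β hβ h0 =>
          ThreeTermStructure.result hG a b c g₁ g₂ g₃ h12 h13 h23 habc β hβ h0⟩⟩

end Vale.Agent.Results.P201.A0_Combined
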