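import Vale.Agent.P201.Dominance

namespace Vale.Agent.Results.P201.Z_DominantCoefficient

open MonoidAlgebra Vale.Agent.P201

theorem result {K : Type*} [Field K] (v : AbsoluteValue K ℝ) {G : Type*} [Group G]
    (hG : ∀ g : G, g ≠ 1 → ¬ IsOfFinOrder g)
    (α : MonoidAlgebra K G) (hα : α ≠ 0) (g₀ : G)
    (hdom : ∑ g ∈ α.coeff.support, v (α.coeff g) ≤ 2 * v (α.coeff g₀)) :
    (∀ β : MonoidAlgebra K G, (α * β = 0 → β = 0) ∧ (β * α = 0 → β = 0)) ∧
    (∀ f : G → K, Filter.Tendsto (fun h => v (f h)) Filter.cofinite (nhds 0) →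
      ((∀ h, ∑ g ∈ α.coeff.support, α.coeff g * f (g⁻¹ * h) = 0) → f = 0) ∧
      ((∀ h, ∑ g ∈ α.coeff.support, f (h * g⁻¹) * α.coeff g = 0) → f = 0)) :=
  ⟨fun β => regular_of_dominant hG v hα hdom β,
    fun _ hf => ⟨fun h0 => fun_eq_zero_of_dominant_left hG v hα hdom hf h0,
      fun h0 => fun_eq_zero_of_dominant_right hG v hα hdom hf h0⟩⟩

end Vale.Agent.Results.P201.Z_DominantCoefficient
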